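import Crest.Agent.R108.Game

/-! Row 108: nonexpansive maps on bounded closed convex subsets of reflexive spaces have fixed
points. -/

set_option autoImplicit false
open Filter Topology Set

namespace Crest.Agent.R108

variable {X : Type*} [NormedAddCommGroup X] [NormedSpace ℝ X]

/-- nonempty closed convex invariant sets -/
structure Good (F : X → X) (K : Set X) : Prop where
  ne : K.Nonempty
  closed : IsClosed K
  conv : Convex ℝ K
  maps : MapsTo F K K

theorem exists_minimal (hX : Refl X) {F : X → X} {C : Set X} (hC : Good F C) {r : ℝ}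
    (hr : ∀ x ∈ C, ‖x‖ ≤ r) : ∃ K ⊆ C, Good F K ∧ ∀ K' ⊆ K, Good F K' → K ⊆ K' := by
  obtain ⟨K, -, hK⟩ := zorn_superset_nonempty (S := {K | K ⊆ C ∧ Good F K})
    (fun c hc hch hne => by
      have := hne.to_subtype
      obtain ⟨A, hA⟩ := hne
      refine ⟨⋂₀ c, ⟨(sInter_subset_of_mem hA).trans (hc hA).1, ?_,
        isClosed_sInter fun B hB => (hc hB).2.closed, convex_sInter fun B hB => (hc hB).2.conv,
        fun x hx B hB => (hc hB).2.maps (hx B hB)⟩, fun A hA => sInter_subset_of_mem hA⟩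
      rw [sInter_eq_iInter]
      refine hX.nonempty_iInter _ (fun A A' => ?_) (fun A => (hc A.2).2.ne)
        (fun A => isClosed_wk (hc A.2).2.conv (hc A.2).2.closed) (r := r)
        fun A x hx => hr x ((hc A.2).1 hx)
      rcases hch.total A.2 A'.2 with h | h
      · exact ⟨A, subset_rfl, h⟩
      · exact ⟨A', h, subset_rfl⟩) C ⟨subset_rfl, hC⟩
  exact ⟨K, hK.prop.1, hK.prop.2, fun K' h1 h2 => hK.le_of_le ⟨h1.trans hK.prop.1, h2⟩ h1⟩

/-- The Goebel-Karlovitz lemma. -/
theorem goebel_karlovitz (hX : Refl X) {F : X → X} {K : Set X} (hK : Good F K) {r : ℝ}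
    (hr : ∀ x ∈ K, ‖x‖ ≤ r) (hmin : ∀ K' ⊆ K, Good F K' → K ⊆ K')
    (hF : ∀ a ∈ K, ∀ b ∈ K, ‖F a - F b‖ ≤ ‖a - b‖) {d : ℝ}
    (hd : ∀ d', (∀ a ∈ K, ∀ b ∈ K, ‖a - b‖ ≤ d') → d ≤ d') {k : X} (hk : k ∈ K) {δ : ℝ}
    (hδ : 0 < δ) : ∃ η > 0, ∀ x ∈ K, ‖x - F x‖ ≤ η → d - δ ≤ ‖x - k‖ := by
  by_contra! hn
  choose x hx hx1 hx2 using fun n : ℕ => hn (1 / ((n : ℝ) + 1)) (by positivity)
  let U := hyperfilter ℕ
  have hU : (U : Filter ℕ) ≤ atTop := Nat.hyperfilter_le_atTop
  choose ρ hρ using fun y => exists_ulim U (fun n => ‖x n - y‖) (r + ‖y‖) fun n => by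
    rw [abs_norm]; exact (norm_sub_le _ _).trans (by linarith [hr _ (hx n)])
  have hlip : ∀ y y', ρ y ≤ ρ y' + ‖y' - y‖ := fun y y' =>
    le_of_tendsto_of_tendsto' (hρ y) ((hρ y').add_const _) fun n =>
      norm_sub_le_norm_sub_add_norm_sub _ _ _
  have hcont : Continuous ρ := (LipschitzWith.of_le_add (f := ρ) fun y y' => by
    rw [dist_comm, dist_eq_norm]; exact hlip y y').continuous
  have h1 : K ⊆ {y ∈ K | ρ y ≤ d - δ} := by
    refine hmin _ (fun _ h => h.1) ⟨⟨k, hk, le_of_tendsto' (hρ k) fun n => (hx2 n).le⟩,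
      hK.closed.inter (isClosed_le hcont continuous_const), ?_, fun y hy => ⟨hK.maps hy.1, ?_⟩⟩
    · intro y hy y' hy' a b ha hb hab
      refine ⟨hK.conv hy.1 hy'.1 ha hb hab, ?_⟩
      have : ρ (a • y + b • y') ≤ a * ρ y + b * ρ y' :=
        le_of_tendsto_of_tendsto' (hρ _) (((hρ y).const_mul a).add ((hρ y').const_mul b))
          fun n => by
            have e : x n - (a • y + b • y') = a • (x n - y) + b • (x n - y') := by
              rw [smul_sub, smul_sub, ← add_sub_add_comm, ← add_smul, hab, one_smul]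
            simp only [e]
            refine (norm_add_le _ _).trans ?_
            rw [norm_smul, norm_smul, Real.norm_of_nonneg ha, Real.norm_of_nonneg hb]
      have h2 := mul_le_mul_of_nonneg_left hy.2 ha
      have h3 := mul_le_mul_of_nonneg_left hy'.2 hb
      have : a * (d - δ) + b * (d - δ) = d - δ := by rw [← add_mul, hab, one_mul]
      linarith
    · have : ρ (F y) ≤ 0 + ρ y :=
        le_of_tendsto_of_tendsto' (hρ _)
          ((tendsto_one_div_add_atTop_nhds_zero_nat.mono_left hU).add (hρ y)) fun n =>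
          (norm_sub_le_norm_sub_add_norm_sub _ (F (x n)) _).trans
            (add_le_add (hx1 n) (hF _ (hx n) _ hy.1))
      linarith [hy.2]
  obtain ⟨z, hz⟩ := hX.exists_wlim U x r fun n => hr _ (hx n)
  have h2 : K ⊆ {z ∈ K | ∀ y ∈ K, ‖z - y‖ ≤ d - δ} := by
    have e : {z ∈ K | ∀ y ∈ K, ‖z - y‖ ≤ d - δ} = K ∩ ⋂ y ∈ K, Metric.closedBall y (d - δ) := by
      ext z; simp [dist_eq_norm]
    refine hmin _ (fun _ h => h.1) ⟨⟨z, hz.mem hK.conv hK.closed (.of_forall hx), fun y hy =>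
      (hz.norm_sub_le y (hρ y) fun _ => le_rfl).trans (h1 hy).2⟩, ?_, ?_,
      fun z hz => ⟨hK.maps hz.1, fun y hy => ?_⟩⟩
    · rw [e]
      exact hK.closed.inter (isClosed_biInter fun _ _ => Metric.isClosed_closedBall)
    · rw [e]
      exact hK.conv.inter (convex_iInter₂ fun _ _ => convex_closedBall _ _)
    · have hm : ∀ y ∈ K, F y ∈ K ∩ Metric.closedBall (F z) (d - δ) := fun y hy =>
        ⟨hK.maps hy, by
          rw [mem_closedBall_iff_norm']
          exact (hF _ hz.1 _ hy).trans (hz.2 y hy)⟩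
      have := (hmin (K ∩ Metric.closedBall (F z) (d - δ)) inter_subset_left
        ⟨⟨_, hm k hk⟩, hK.closed.inter Metric.isClosed_closedBall,
          hK.conv.inter (convex_closedBall _ _), fun y hy => hm y hy.1⟩ hy).2
      rwa [mem_closedBall_iff_norm'] at this
  have := hd (d - δ) fun a ha => (h2 ha).2
  linarith

/-- The resolvent. -/
theorem exists_resolvent [CompleteSpace X] {F : X → X} {K : Set X} (hK : Good F K)
    (hF : ∀ a ∈ K, ∀ b ∈ K, ‖F a - F b‖ ≤ ‖a - b‖) {d : ℝ} (hd : ∀ a ∈ K, ∀ b ∈ K, ‖a - b‖ ≤ d) :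
    ∃ J : ℕ → X → X, ∀ n, ∀ x ∈ K, J n x ∈ K ∧ (∀ y ∈ K, ‖J n x - J n y‖ ≤ ‖x - y‖) ∧
      ‖J n x - F (J n x)‖ ≤ d * (1 / ((n : ℝ) + 1)) ∧ ‖J n x - x‖ ≤ n * ‖x - F x‖ := by
  have key : ∀ (n : ℕ) (x : X), ∃ z, x ∈ K → z ∈ K ∧ x + (n : ℝ) • F z = ((n : ℝ) + 1) • z := by
    intro n x
    by_cases hx : x ∈ K
    swap
    · exact ⟨x, fun h => absurd h hx⟩
    have hn : (0 : ℝ) < n + 1 := by positivity
    let g : X → X := fun z => (1 / ((n : ℝ) + 1)) • x + (n / ((n : ℝ) + 1)) • F z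
    have hg : MapsTo g K K := fun z hz => hK.conv hx (hK.maps hz) (by positivity) (by positivity)
      (by field_simp; ring)
    have hc : ContractingWith (NNReal.mk (n / ((n : ℝ) + 1)) (by positivity)) (hg.restrict g K K) := by
      refine ⟨?_, LipschitzWith.of_dist_le_mul fun a b => ?_⟩
      · rw [← NNReal.coe_lt_coe, NNReal.coe_mk, NNReal.coe_one, div_lt_one hn]
        linarith
      · rw [Subtype.dist_eq, Subtype.dist_eq, dist_eq_norm, dist_eq_norm]
        change ‖g a - g b‖ ≤ n / ((n : ℝ) + 1) * _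
        simp only [g, add_sub_add_left_eq_sub, ← smul_sub, norm_smul]
        rw [Real.norm_of_nonneg (by positivity)]
        exact mul_le_mul_of_nonneg_left (hF _ a.2 _ b.2) (by positivity)
    obtain ⟨z, hz, hz', -⟩ := ContractingWith.exists_fixedPoint' hK.closed.isComplete hg hc hx
      (edist_ne_top _ _)
    refine ⟨z, fun _ => ⟨hz, ?_⟩⟩
    rw [← congrArg (((n : ℝ) + 1) • ·) hz'.eq]
    simp only [g, smul_add, smul_smul]
    rw [mul_one_div_cancel hn.ne', mul_div_cancel₀ _ hn.ne', one_smul]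
  choose J hJ using key
  refine ⟨J, fun n x hx => ⟨(hJ n x hx).1, fun y hy => ?_, ?_, ?_⟩⟩
  · have e : ((n : ℝ) + 1) • (J n x - J n y) = (x - y) + (n : ℝ) • (F (J n x) - F (J n y)) := by
      rw [smul_sub, ← (hJ n x hx).2, ← (hJ n y hy).2]; module
    have h1 := norm_add_le (x - y) ((n : ℝ) • (F (J n x) - F (J n y)))
    rw [← e, norm_smul, norm_smul, Real.norm_of_nonneg (by positivity),
      Real.norm_of_nonneg (by positivity)] at h1
    have h2 := mul_le_mul_of_nonneg_left (hF _ (hJ n x hx).1 _ (hJ n y hy).1) n.cast_nonneg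
    linarith
  · have e : ((n : ℝ) + 1) • (J n x - F (J n x)) = x - F (J n x) := by
      rw [smul_sub, ← (hJ n x hx).2]; module
    have h1 := hd _ hx _ (hK.maps (hJ n x hx).1)
    rw [← e, norm_smul, Real.norm_of_nonneg (by positivity)] at h1
    rw [mul_one_div, le_div_iff₀ (by positivity)]
    linarith
  · have e : ((n : ℝ) + 1) • (J n x - x) =
        (n : ℝ) • (F (J n x) - F x) - (n : ℝ) • (x - F x) := by
      rw [smul_sub, ← (hJ n x hx).2]; module
    have h1 := norm_sub_le ((n : ℝ) • (F (J n x) - F x)) ((n : ℝ) • (x - F x))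
    rw [← e, norm_smul, norm_smul, norm_smul, Real.norm_of_nonneg (by positivity),
      Real.norm_of_nonneg (by positivity)] at h1
    have h2 := mul_le_mul_of_nonneg_left (hF _ (hJ n x hx).1 _ hx) n.cast_nonneg
    linarith

/-- contraction factor of a word -/
def lam (w : List (ℕ × Icc (0 : ℝ) 1)) : ℝ := (w.map fun a => 1 - a.2.1).prod

lemma lam_nonneg (w : List (ℕ × Icc (0 : ℝ) 1)) : 0 ≤ lam w := by
  induction w with
  | nil => simp [lam]
  | cons a w ih => exact mul_nonneg (sub_nonneg.2 a.2.2.2) ih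

lemma lam_append (w u : List (ℕ × Icc (0 : ℝ) 1)) : lam (w ++ u) = lam w * lam u := by
  simp [lam]

theorem fixed_separable [CompleteSpace X] [TopologicalSpace.SeparableSpace X] (hX : Refl X)
    {F : X → X} {C : Set X} (hC : Good F C) {r : ℝ} (hr : ∀ x ∈ C, ‖x‖ ≤ r)
    (hF : ∀ a ∈ C, ∀ b ∈ C, ‖F a - F b‖ ≤ ‖a - b‖) : ∃ x ∈ C, F x = x := by
  by_contra! hn
  obtain ⟨K, hKC, hK, hmin⟩ := exists_minimal hX hC hr
  replace hF : ∀ a ∈ K, ∀ b ∈ K, ‖F a - F b‖ ≤ ‖a - b‖ := fun a ha b hb =>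
    hF a (hKC ha) b (hKC hb)
  replace hr : ∀ x ∈ K, ‖x‖ ≤ r := fun x hx => hr x (hKC hx)
  obtain ⟨y, hy⟩ := hK.ne
  set d := sSup {t | ∃ a ∈ K, ∃ b ∈ K, t = ‖a - b‖}
  have hd : ∀ a ∈ K, ∀ b ∈ K, ‖a - b‖ ≤ d := fun a ha b hb => le_csSup ⟨r + r, by
    rintro _ ⟨a, ha, b, hb, rfl⟩
    exact (norm_sub_le _ _).trans (add_le_add (hr a ha) (hr b hb))⟩ ⟨a, ha, b, hb, rfl⟩
  have hd' : ∀ d', (∀ a ∈ K, ∀ b ∈ K, ‖a - b‖ ≤ d') → d ≤ d' := fun d' h =>
    csSup_le ⟨_, y, hy, y, hy, rfl⟩ (by rintro _ ⟨a, ha, b, hb, rfl⟩; exact h a ha b hb)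
  have hd0 : 0 < d := (norm_pos_iff.2 (sub_ne_zero.2 (hn y (hKC hy)))).trans_le
    (hd _ (hK.maps hy) _ hy)
  obtain ⟨J, hJ⟩ := exists_resolvent hK hF hd
  let G : List (ℕ × Icc (0 : ℝ) 1) → X → X := fun w x =>
    w.foldr (fun a x => J a.1 ((1 - a.2.1) • x + a.2.1 • y)) x
  have hmix : ∀ a : Icc (0 : ℝ) 1, ∀ x ∈ K, (1 - a.1) • x + a.1 • y ∈ K := fun a x hx =>
    hK.conv hx hy (sub_nonneg.2 a.2.2) a.2.1 (by ring)
  have hGK : ∀ w, ∀ x ∈ K, G w x ∈ K := fun w x hx => by
    induction w with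
    | nil => exact hx
    | cons a w ih => exact (hJ _ _ (hmix _ _ ih)).1
  have hGapp : ∀ w u x, G (w ++ u) x = G w (G u x) := fun w u x => List.foldr_append
  have hGlip : ∀ w, ∀ x ∈ K, ∀ x' ∈ K, ‖G w x - G w x'‖ ≤ lam w * ‖x - x'‖ :=
    fun w x hx x' hx' => by
    induction w with
    | nil => simp [G, lam]
    | cons a w ih =>
      refine ((hJ _ _ (hmix _ _ (hGK w x hx))).2.1 _ (hmix _ _ (hGK w x' hx'))).trans ?_
      rw [add_sub_add_right_eq_sub, ← smul_sub, norm_smul,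
        Real.norm_of_nonneg (sub_nonneg.2 a.2.2.2)]
      exact (mul_le_mul_of_nonneg_left ih (sub_nonneg.2 a.2.2.2)).trans_eq (mul_assoc _ _ _).symm
  have hGdis : ∀ w, ∃ c : ℝ, 0 ≤ c ∧ ∀ x ∈ K, ‖G w x - x‖ ≤ (1 - lam w) * d + c * ‖x - F x‖ :=
    fun w => by
    induction w with
    | nil => exact ⟨0, le_rfl, fun x _ => by simp [G, lam]⟩
    | cons a w ih =>
      obtain ⟨c, hc, ih⟩ := ih
      have ha := sub_nonneg.2 a.2.2.2
      refine ⟨(1 - a.2.1) * c + a.1, by positivity, fun x hx => ?_⟩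
      have h1 := (hJ a.1 _ (hmix a.2 _ (hGK w x hx))).2.1 _ hx
      have h2 := (hJ a.1 _ hx).2.2.2
      have e : (1 - a.2.1) • G w x + a.2.1 • y - x = (1 - a.2.1) • (G w x - x) + a.2.1 • (y - x) := by
        module
      have h3 := norm_add_le ((1 - a.2.1) • (G w x - x)) (a.2.1 • (y - x))
      rw [← e, norm_smul, norm_smul, Real.norm_of_nonneg ha, Real.norm_of_nonneg a.2.2.1] at h3
      have h4 := mul_le_mul_of_nonneg_left (ih x hx) ha
      have h5 := mul_le_mul_of_nonneg_left (hd _ hy _ hx) a.2.2.1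
      have h6 := norm_sub_le_norm_sub_add_norm_sub (G (a :: w) x) (J a.1 x) x
      have e2 : lam (a :: w) = (1 - a.2.1) * lam w := rfl
      change ‖G (a :: w) x - _‖ ≤ _ at h1
      rw [e2]
      linarith
  let U := hyperfilter ℕ
  have hU : (U : Filter ℕ) ≤ atTop := Nat.hyperfilter_le_atTop
  have hxK : ∀ m, J m y ∈ K := fun m => (hJ m y hy).1
  choose s hs using fun w => hX.exists_wlim U (fun m => G w (J m y)) r
    fun m => hr _ (hGK w _ (hxK m))
  refine Tree.false_of_refl hX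
    { τ := fun w => (1 - lam w) * d
      s := s
      desc := fun N w w' => ∃ n ≥ N, ∃ a u, w' = w ++ (n, a) :: u
      d := d
      K := K
      conv := hK.conv
      closed := hK.closed
      mem := fun w => (hs w).mem hK.conv hK.closed (.of_forall fun m => hGK w _ (hxK m))
      root := ⟨[], by simpa [lam]⟩
      mono := fun hN ⟨n, hn, h⟩ => ⟨n, hN.trans hn, h⟩
      trans := ?_
      ex := fun w h h0 h1 N => ?_
      lip := ?_
      low := fun w v hv δ hδ => ?_ }
  · rintro N w _ _ ⟨n, hn, a, u, rfl⟩ ⟨n', -, a', u', rfl⟩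
    exact ⟨n, hn, a, u ++ (n', a') :: u', by simp⟩
  · have h2 : 0 < lam w * d := by linarith
    refine ⟨w ++ [(N, ⟨h / (lam w * d), by positivity, (div_le_one h2).2 (by linarith)⟩)],
      ⟨N, le_rfl, _, _, rfl⟩, ?_⟩
    have := (pos_of_mul_pos_left h2 hd0.le).ne'
    rw [lam_append]
    simp only [lam, List.map_cons, List.map_nil, List.prod_cons, List.prod_nil] at this ⊢
    field_simp
    ring
  · rintro w _ ⟨n, -, a, u, rfl⟩
    obtain ⟨c, hc, h⟩ := hGdis ((n, a) :: u)
    have := ((hs (w ++ (n, a) :: u)).sub (hs w)).norm_sub_le 0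
      (a := fun m : ℕ => lam w * ((1 - lam ((n, a) :: u)) * d + c * (d * (1 / ((m : ℝ) + 1)))))
      (((((tendsto_one_div_add_atTop_nhds_zero_nat.mono_left hU).const_mul d).const_mul c).const_add
        _).const_mul _) fun m => by
        rw [sub_zero, hGapp]
        refine (hGlip w _ (hGK _ _ (hxK m)) _ (hxK m)).trans
          (mul_le_mul_of_nonneg_left ((h _ (hxK m)).trans ?_) (lam_nonneg _))
        have := mul_le_mul_of_nonneg_left (hJ m y hy).2.2.1 hc
        linarith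
    rw [sub_zero] at this
    rw [lam_append]
    linarith
  · obtain ⟨η, hη, h1⟩ := goebel_karlovitz hX hK hr hmin hF hd' hv (half_pos hδ)
    obtain ⟨c, hc, h2⟩ := hGdis w
    have t1 := tendsto_one_div_add_atTop_nhds_zero_nat.const_mul d
    have t2 := t1.const_mul c
    simp only [mul_zero] at t1 t2
    obtain ⟨N, hN⟩ := eventually_atTop.1 ((t1.eventually (ge_mem_nhds hη)).and
      (t2.eventually (ge_mem_nhds (half_pos hδ))))
    refine ⟨N, ?_⟩
    rintro _ ⟨n, hn, a, u, rfl⟩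
    have hz := hGK ((n, a) :: u) _ hy
    have h3 : ‖G ((n, a) :: u) y - F (G ((n, a) :: u) y)‖ ≤ d * (1 / ((n : ℝ) + 1)) :=
      (hJ n _ (hmix a _ (hGK u y hy))).2.2.1
    have h4 := h1 _ hz (h3.trans (hN n hn).1)
    have h5 := h2 _ hz
    have h6 := (mul_le_mul_of_nonneg_left h3 hc).trans (hN n hn).2
    have h7 := (hs (w ++ (n, a) :: u)).norm_sub_le (G (w ++ (n, a) :: u) y)
      (tendsto_const_nhds (x := lam (w ++ (n, a) :: u) * d)) fun m =>
        (hGlip _ _ (hxK m) _ hy).trans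
          (mul_le_mul_of_nonneg_left (hd _ (hxK m) _ hy) (lam_nonneg _))
    rw [hGapp] at h7
    have h8 := norm_sub_le_norm_sub_add_norm_sub (G ((n, a) :: u) y)
      (G w (G ((n, a) :: u) y)) v
    have h9 := norm_sub_le_norm_sub_add_norm_sub (G w (G ((n, a) :: u) y)) (s (w ++ (n, a) :: u)) v
    rw [norm_sub_rev] at h5 h7
    linarith

theorem Refl.submodule (hX : Refl X) (Y : Submodule ℝ X) (hY : IsClosed (Y : Set X)) :
    Refl Y := by
  intro L
  obtain ⟨x, hx⟩ := hX (L ∘L (ContinuousLinearMap.compL ℝ Y X ℝ).flip Y.subtypeL)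
  have hx' : ∀ f : StrongDual ℝ X, f x = L (f ∘L Y.subtypeL) := fun f =>
    congrArg (fun φ : StrongDual ℝ (StrongDual ℝ X) => φ f) hx
  have hxY : x ∈ Y := by
    by_contra h
    obtain ⟨f, u, h1, h2⟩ := geometric_hahn_banach_closed_point Y.convex hY h
    have h3 : f ∘L Y.subtypeL = 0 := by
      ext y
      by_contra h0
      have := h1 ((u / f y) • (y : X)) (Y.smul_mem _ y.2)
      rw [map_smul, smul_eq_mul, div_mul_cancel₀ _ (by simpa using h0)] at this
      exact this.false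
    have := h1 0 Y.zero_mem
    rw [hx', h3] at h2
    simp only [map_zero] at this h2
    linarith
  refine ⟨⟨x, hxY⟩, ?_⟩
  ext g
  obtain ⟨f, hf, -⟩ := exists_extension_norm_eq Y g
  have : f ∘L Y.subtypeL = g := by ext y; exact hf y
  rw [NormedSpace.dual_def, ← hf, ← this]
  exact hx' f

theorem fixed [CompleteSpace X] (hX : Refl X)
    {F : X → X} {C : Set X} (hC : Good F C) {r : ℝ} (hr : ∀ x ∈ C, ‖x‖ ≤ r)
    (hF : ∀ a ∈ C, ∀ b ∈ C, ‖F a - F b‖ ≤ ‖a - b‖) : ∃ x ∈ C, F x = x := by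
  classical
  obtain ⟨x, hx⟩ := hC.ne
  have hcont : ContinuousOn F C := (LipschitzOnWith.of_dist_le_mul (K := 1) fun a ha b hb => by
    simpa [dist_eq_norm] using hF a ha b hb).continuousOn
  let S : ℕ → Set X := fun k => Nat.rec {x} (fun _ A => convexHull ℝ (A ∪ F '' A)) k
  have hS : ∀ k, S (k + 1) = convexHull ℝ (S k ∪ F '' S k) := fun _ => rfl
  have hSC : ∀ k, S k ⊆ C := fun k => by
    induction k with
    | zero => exact singleton_subset_iff.2 hx
    | succ k ih => exact convexHull_min (union_subset ih (hC.maps.mono_left ih).image_subset) hC.conv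
  have hsep : ∀ k, TopologicalSpace.IsSeparable (S k) := fun k => by
    induction k with
    | zero => exact (countable_singleton x).isSeparable
    | succ k ih =>
      exact ((ih.union ((hcont.mono (hSC k)).isSeparable_image ih)).span (R := ℝ)).mono
        (convexHull_min Submodule.subset_span (Submodule.convex _))
  have hmono : Monotone S := monotone_nat_of_le_succ fun k =>
    subset_union_left.trans (subset_convexHull _ _)
  have hD : closure (⋃ k, S k) ⊆ C := closure_minimal (iUnion_subset hSC) hC.closed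
  have hG : Good F (closure (⋃ k, S k)) :=
    ⟨⟨x, subset_closure (mem_iUnion.2 ⟨0, rfl⟩)⟩, isClosed_closure,
      (hmono.directed_le.convex_iUnion fun k => by
        cases k with
        | zero => exact convex_singleton x
        | succ k => exact convex_convexHull _ _).closure,
      MapsTo.closure_of_continuousOn (fun a ha => by
        obtain ⟨k, hk⟩ := mem_iUnion.1 ha
        exact mem_iUnion.2 ⟨k + 1, subset_convexHull _ _ (.inr ⟨a, hk, rfl⟩)⟩) (hcont.mono hD)⟩
  set D := closure (⋃ k, S k)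
  have hDs : TopologicalSpace.IsSeparable D := (TopologicalSpace.IsSeparable.iUnion hsep).closure
  let Y := (Submodule.span ℝ D).topologicalClosure
  have hY : IsClosed (Y : Set X) := Submodule.isClosed_topologicalClosure _
  have hDY : D ⊆ Y := Submodule.subset_span.trans (Submodule.le_topologicalClosure _)
  have : CompleteSpace Y := hY.completeSpace_coe
  have : TopologicalSpace.SeparableSpace Y := (hDs.span (R := ℝ)).closure.separableSpace
  let F' : Y → Y := fun a => if h : F a ∈ Y then ⟨F a, h⟩ else 0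
  have hF' : ∀ a : Y, (a : X) ∈ D → (F' a : X) = F a := fun a ha => by
    simp only [F', dif_pos (show F a ∈ Y from hDY (hG.maps ha))]
  obtain ⟨z, hz⟩ := hG.ne
  obtain ⟨a, ha, ha'⟩ := fixed_separable (hX.submodule Y hY) (F := F') (C := Subtype.val ⁻¹' D)
    ⟨⟨⟨z, hDY hz⟩, hz⟩, hG.closed.preimage continuous_subtype_val,
      hG.conv.linear_preimage Y.subtype, fun a ha => by
        rw [mem_preimage, hF' a ha]; exact hG.maps ha⟩ (r := r) (fun a ha => hr a (hD ha))
    fun a ha b hb => by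
      change ‖(F' a : X) - F' b‖ ≤ ‖(a : X) - b‖
      rw [hF' a ha, hF' b hb]
      exact hF _ (hD ha) _ (hD hb)
  exact ⟨a, hD ha, by rw [← hF' a ha, ha']⟩

end Crest.Agent.R108
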