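import Crest.Agent.R108.Weak

/-! Row 108: the tree game. A tree of points that is `1`-Lipschitz in time along branches and whose
generic descendants move away from every fixed point at unit speed cannot exist in a separable
reflexive space. -/

set_option autoImplicit false
open Filter Topology Set

namespace Crest.Agent.R108

variable {X : Type*} [NormedAddCommGroup X] [NormedSpace ℝ X] {W : Type*}

/-- the data of the tree -/
structure Tree (X : Type*) [NormedAddCommGroup X] [NormedSpace ℝ X] (W : Type*) where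
  τ : W → ℝ
  s : W → X
  desc : ℕ → W → W → Prop
  d : ℝ
  K : Set X
  conv : Convex ℝ K
  closed : IsClosed K
  mem : ∀ w, s w ∈ K
  root : ∃ w, τ w < d
  mono : ∀ {N N' w w'}, N ≤ N' → desc N' w w' → desc N w w'
  trans : ∀ {N w w' w''}, desc N w w' → desc 0 w' w'' → desc N w w''
  ex : ∀ w h, 0 < h → τ w + h < d → ∀ N, ∃ w', desc N w w' ∧ τ w' = τ w + h
  lip : ∀ {w w'}, desc 0 w w' → ‖s w' - s w‖ ≤ τ w' - τ w
  low : ∀ w, ∀ v ∈ K, ∀ δ > 0, ∃ N, ∀ w', desc N w w' → τ w' - τ w - δ ≤ ‖s w' - v‖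

namespace Tree
variable (T : Tree X W)

/-- generic increments -/
def B (w : W) (h : ℝ) : Set X :=
  {v | (0 < h ∧ T.τ w + h < T.d) ∧ ∀ N, v ∈ closure[wk X]
    {x | ∃ w', T.desc N w w' ∧ T.τ w' = T.τ w + h ∧ x = T.s w' - T.s w}}

/-- plays -/
inductive Play (V : W → ℝ → Set X) (N : ℕ) (w : W) : W → X → Prop
  | single {w' : W} {v : X} : T.desc N w w' → v ∈ V w (T.τ w' - T.τ w) → Play V N w w' v
  | snoc {w' w'' : W} {p v : X} : Play V N w w' p → T.desc 0 w' w'' →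
      v ∈ V w' (T.τ w'' - T.τ w') → Play V N w w'' (p + v)

/-- totals of plays with small remainder -/
def Tot (V : W → ℝ → Set X) (w : W) (t θ : ℝ) (N : ℕ) : Set X :=
  {p | ∃ w', T.Play V N w w' p ∧ T.τ w' = T.τ w + t ∧ ‖T.s w' - T.s w - p‖ ≤ θ}

/-- the derivation -/
def Γ (V : W → ℝ → Set X) (w : W) (t : ℝ) : Set X :=
  {v | (0 < t ∧ T.τ w + t < T.d) ∧ ∀ θ > 0, ∀ N, v ∈ closure[wk X] (T.Tot V w t θ N)}

variable {T} {V V' : W → ℝ → Set X}

lemma Play.desc {N : ℕ} {w w' : W} {p : X} (h : T.Play V N w w' p) : T.desc N w w' := by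
  induction h with
  | single h _ => exact h
  | snoc _ h _ ih => exact T.trans ih h

lemma Play.mono {N N' : ℕ} (hN : N ≤ N') (hV : ∀ w h, V w h ⊆ V' w h) {w w' : W} {p : X}
    (h : T.Play V N' w w' p) : T.Play V' N w w' p := by
  induction h with
  | single h hv => exact .single (T.mono hN h) (hV _ _ hv)
  | snoc _ h hv ih => exact .snoc ih h (hV _ _ hv)

lemma norm_le_of_B {w : W} {h : ℝ} {v : X} (hv : v ∈ T.B w h) : ‖v‖ ≤ h := by
  have := wcl_subset (convex_closedBall (0 : X) h) Metric.isClosed_closedBall ?_ (hv.2 0)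
  · simpa using this
  rintro _ ⟨w', h1, h2, rfl⟩
  have := T.lip h1
  rw [mem_closedBall_zero_iff]
  linarith

lemma Play.norm_le (hV : ∀ w h, V w h ⊆ T.B w h) {N : ℕ} {w w' : W} {p : X}
    (h : T.Play V N w w' p) : ‖p‖ ≤ T.τ w' - T.τ w := by
  induction h with
  | single _ hv => exact norm_le_of_B (hV _ _ hv)
  | snoc _ _ hv ih =>
    have := norm_le_of_B (hV _ _ hv)
    exact (norm_add_le _ _).trans (by linarith)

lemma isClosed_B (w : W) (h : ℝ) : IsClosed[wk X] (T.B w h) := by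
  let _ := wk X
  by_cases hv : 0 < h ∧ T.τ w + h < T.d
  · simp only [B, hv, true_and, Set.ofPred_forall]
    exact isClosed_iInter fun N => isClosed_closure
  · simp only [B, hv, false_and]
    exact isClosed_empty

lemma isClosed_Γ (V : W → ℝ → Set X) (w : W) (h : ℝ) : IsClosed[wk X] (T.Γ V w h) := by
  let _ := wk X
  by_cases hv : 0 < h ∧ T.τ w + h < T.d
  · simp only [Γ, hv, true_and, Set.ofPred_forall]
    exact isClosed_iInter fun θ => isClosed_iInter fun _ => isClosed_iInter fun N =>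
      isClosed_closure
  · simp only [Γ, hv, false_and]
    exact isClosed_empty

lemma Γ_mono (hV : ∀ w h, V w h ⊆ V' w h) (w : W) (h : ℝ) : T.Γ V w h ⊆ T.Γ V' w h :=
  fun _ hv => ⟨hv.1, fun θ hθ N => @closure_mono X (wk X) (T.Tot V w h θ N) (T.Tot V' w h θ N)
    (by rintro p ⟨w', h1, h2⟩; exact ⟨w', h1.mono le_rfl hV, h2⟩) _ (hv.2 θ hθ N)⟩

lemma Γ_subset_B (V : W → ℝ → Set X) (w : W) (h : ℝ) : T.Γ V w h ⊆ T.B w h := by
  intro v hv
  refine ⟨hv.1, fun N => ?_⟩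
  let _ := wk X
  rw [mem_closure_iff_nhds]
  intro t ht
  rw [nhds_induced, mem_comap] at ht
  obtain ⟨t', ht', hsub⟩ := ht
  rw [nhds_pi, Filter.mem_pi'] at ht'
  obtain ⟨F, u, hu, hF⟩ := ht'
  choose ε hε hu' using fun f => Metric.mem_nhds_iff.1 (hu f)
  obtain ⟨θ, hθ, hθ'⟩ : ∃ θ > 0, ∀ f ∈ F, (‖f‖ + 1) * θ < ε f := by
    have : ∀ᶠ θ in 𝓝[>] (0 : ℝ), ∀ f ∈ F, (‖f‖ + 1) * θ < ε f := by
      rw [Finset.eventually_all]
      intro f _
      have : Tendsto (fun θ : ℝ => (‖f‖ + 1) * θ) (𝓝 0) (𝓝 ((‖f‖ + 1) * 0)) :=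
        tendsto_id.const_mul _
      rw [mul_zero] at this
      exact (this.eventually (gt_mem_nhds (hε f))).filter_mono nhdsWithin_le_nhds
    exact (eventually_mem_nhdsWithin.and this).exists
  obtain ⟨p, ⟨w', h1, h2, h3⟩, h4⟩ := wcl_approx (hv.2 θ hθ N) F hθ
  refine ⟨T.s w' - T.s w, hsub (hF fun f hf => hu' f ?_), w', h1.desc, h2, rfl⟩
  rw [mem_ball_iff_norm, Real.norm_eq_abs]
  have a1 : |f (T.s w' - T.s w - p)| ≤ ‖f‖ * θ :=
    (f.le_opNorm _).trans (mul_le_mul_of_nonneg_left h3 (norm_nonneg _))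
  have a2 := h4 f hf
  have a3 := hθ' f hf
  have a4 := abs_add_le (f (T.s w' - T.s w - p)) (f p - f v)
  rw [map_sub f (T.s w' - T.s w), sub_add_sub_cancel] at a4
  rw [map_sub f (T.s w' - T.s w)] at a1
  linarith

lemma B_nonempty (hX : Refl X) {w : W} {h : ℝ} (h0 : 0 < h) (h1 : T.τ w + h < T.d) :
    (T.B w h).Nonempty := by
  obtain ⟨v, hv⟩ := hX.nonempty_iInter (fun N : ℕ => closure[wk X]
    {x | ∃ w', T.desc N w w' ∧ T.τ w' = T.τ w + h ∧ x = T.s w' - T.s w})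
    (directed_of_isDirected_le fun N N' hN => @closure_mono X (wk X) _ _
      fun _ ⟨w', h1, h2⟩ => ⟨w', T.mono hN h1, h2⟩)
    (fun N => by
      obtain ⟨w', h2, h3⟩ := T.ex w h h0 h1 N
      exact ⟨_, @subset_closure X (wk X) _ _ ⟨w', h2, h3, rfl⟩⟩)
    (fun N => @isClosed_closure X (wk X) _) (r := h) fun N x hx => by
      have := wcl_subset (convex_closedBall (0 : X) h) Metric.isClosed_closedBall ?_ hx
      · simpa using this
      rintro _ ⟨w', h1, h2, rfl⟩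
      have := T.lip (T.mono (Nat.zero_le _) h1)
      rw [mem_closedBall_zero_iff]
      linarith
  exact ⟨v, ⟨h0, h1⟩, mem_iInter.1 hv⟩

/-- There are plays with small remainder. -/
theorem Tot_nonempty [CompleteSpace X] [TopologicalSpace.SeparableSpace (StrongDual ℝ X)]
    (hV : ∀ w h, V w h ⊆ T.B w h)
    (hne : ∀ w h, 0 < h → T.τ w + h < T.d → (V w h).Nonempty) {w : W} {t : ℝ} (h0 : 0 < t)
    (h1 : T.τ w + t < T.d) {θ : ℝ} (hθ : 0 < θ) (N : ℕ) : (T.Tot V w t θ N).Nonempty := by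
  by_contra hcon
  obtain ⟨φ, φ0, φ1, φ2⟩ := exists_potential (X := X) (half_pos hθ)
  set η := θ / (8 * t) with hη
  have hη0 : 0 < η := by positivity
  let n : W × X → X := fun σ => T.s σ.1 - T.s w - σ.2
  let G : W × X → Prop := fun σ => (σ = (w, 0) ∨ T.Play V N w σ.1 σ.2) ∧
    T.τ σ.1 ≤ T.τ w + t ∧ φ (n σ) ≤ 4 * η * (T.τ σ.1 - T.τ w)
  let R : W × X → W × X → Prop := fun σ σ' => ‖n σ' - n σ‖ ≤ 2 * (T.τ σ'.1 - T.τ σ.1)
  have hlt : ∀ σ, G σ → T.τ σ.1 < T.τ w + t := fun σ hσ => by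
    refine hσ.2.1.lt_of_ne fun he => ?_
    rcases hσ.1 with rfl | hp
    · simp only at he; linarith
    · refine hcon ⟨σ.2, σ.1, hp, he, (φ1 _).trans ?_⟩
      have := hσ.2.2
      rw [he, add_sub_cancel_left] at this
      have e : 4 * η * t = θ / 2 := by rw [hη]; field_simp; norm_num
      linarith
  have step : ∀ x₀, ∃ γ > 0, ∀ σ, G σ → ‖n σ - x₀‖ ≤ γ → ∀ h, 0 < h → 2 * h ≤ γ →
      T.τ σ.1 + h ≤ T.τ w + t → ∃ σ', G σ' ∧ R σ σ' ∧ T.τ σ'.1 = T.τ σ.1 + h := by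
    intro x₀
    obtain ⟨γ, hγ, F, hF⟩ := φ2 x₀ η hη0
    refine ⟨γ, hγ, fun σ hσ hx h hh hγ' hle => ?_⟩
    obtain ⟨v, hv⟩ := hne σ.1 h hh (by linarith)
    obtain ⟨_, ⟨w', a1, a2, rfl⟩, a3⟩ := wcl_approx ((hV _ _ hv).2 N) F
      (show 0 < η * (2 * h) by positivity)
    have a4 := T.lip (T.mono (Nat.zero_le _) a1)
    have a5 := norm_le_of_B (hV _ _ hv)
    have a6 : ‖T.s w' - T.s σ.1 - v‖ ≤ 2 * h := (norm_sub_le _ _).trans (by linarith)
    have e : n (w', σ.2 + v) = n σ + (T.s w' - T.s σ.1 - v) := by simp only [n]; abel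
    have hv' : v ∈ V σ.1 (T.τ w' - T.τ σ.1) := by rwa [a2, add_sub_cancel_left]
    refine ⟨(w', σ.2 + v), ⟨.inr ?_, a2 ▸ hle, ?_⟩, ?_, a2⟩
    · rcases hσ.1 with rfl | hp
      · simpa using Play.single a1 hv'
      · exact .snoc hp (T.mono (Nat.zero_le _) a1) hv'
    · have := hF (n σ) hx _ (2 * h) a6 hγ' fun f hf => by rw [map_sub]; exact a3 f hf
      have := hσ.2.2
      rw [e]
      simp only [a2]
      linarith
    · simp only [R, e, add_sub_cancel_left, a2]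
      exact a6
  have next : ∀ (i : ℕ) (σ : {σ // G σ}), ∃ σ' : {σ // G σ}, R σ.1 σ'.1 ∧
      ∀ σ'', G σ'' → R σ.1 σ'' → T.τ σ''.1 ≤ T.τ σ'.1.1 + 1 / ((i : ℝ) + 1) := by
    intro i σ
    have hb : BddAbove ((fun σ' : W × X => T.τ σ'.1) '' {σ' | G σ' ∧ R σ.1 σ'}) :=
      ⟨T.τ w + t, by rintro _ ⟨σ', h, rfl⟩; exact h.1.2.1⟩
    obtain ⟨_, ⟨σ', h, rfl⟩, h'⟩ := exists_lt_of_lt_csSup
      (s := (fun σ' : W × X => T.τ σ'.1) '' {σ' | G σ' ∧ R σ.1 σ'})
      ⟨_, σ.1, ⟨σ.2, by simp [R]⟩, rfl⟩ (sub_lt_self _ (show (0 : ℝ) < 1 / ((i : ℝ) + 1) by positivity))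
    refine ⟨⟨σ', h.1⟩, h.2, fun σ'' h1 h2 => ?_⟩
    have := le_csSup hb ⟨σ'', ⟨h1, h2⟩, rfl⟩
    simp only at *
    linarith
  choose nx hnx hnx' using next
  let q : ℕ → {σ // G σ} := fun i => Nat.rec ⟨(w, 0), .inl rfl, by simp [h0.le], by simpa [n]⟩
    (fun i σ => nx i σ) i
  have hq : ∀ i, R (q i).1 (q (i + 1)).1 := fun i => hnx i (q i)
  have hR : ∀ {a b c}, R a b → R b c → R a c := fun {a b c} h1 h2 => by
    have := norm_sub_le_norm_sub_add_norm_sub (n c) (n b) (n a)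
    simp only [R] at *
    linarith
  have hqq : ∀ i j, i ≤ j → R (q i).1 (q j).1 := fun i j hij => by
    induction hij with
    | refl => simp [R]
    | step _ ih => exact hR ih (hq _)
  have hcau : CauchySeq fun i => n (q (i + 1)).1 := by
    refine cauchySeq_of_le_tendsto_0' (fun i : ℕ => 2 * (1 / ((i : ℝ) + 1))) (fun i j hij => ?_)
      (by simpa using tendsto_one_div_add_atTop_nhds_zero_nat.const_mul (2 : ℝ))
    have b1 := hqq (i + 1) (j + 1) (by omega)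
    have b2 := hnx' i (q i) _ (q (j + 1)).2 (hqq i (j + 1) (by omega))
    rw [dist_comm, dist_eq_norm]
    change _ ≤ T.τ (q (i + 1)).1.1 + _ at b2
    simp only [R] at b1
    linarith
  obtain ⟨x₀, hx₀⟩ := cauchySeq_tendsto_of_complete hcau
  obtain ⟨γ, hγ, hs⟩ := step x₀
  obtain ⟨i, hi1, hi2⟩ := (((Metric.tendsto_nhds.1 hx₀) γ hγ).and
    (tendsto_one_div_add_atTop_nhds_zero_nat.eventually (gt_mem_nhds (half_pos hγ)))).exists
  rw [dist_eq_norm] at hi1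
  have c0 := hlt _ (q (i + 1)).2
  by_cases hc : T.τ (q (i + 1)).1.1 + γ / 2 ≤ T.τ w + t
  · obtain ⟨σ', c1, c2, c3⟩ := hs _ (q (i + 1)).2 hi1.le (γ / 2) (half_pos hγ) (by linarith) hc
    have b2 := hnx' i (q i) _ c1 (hR (hq i) c2)
    change _ ≤ T.τ (q (i + 1)).1.1 + _ at b2
    linarith
  · obtain ⟨σ', c1, -, c3⟩ := hs _ (q (i + 1)).2 hi1.le (T.τ w + t - T.τ (q (i + 1)).1.1)
      (by linarith) (by linarith) (by linarith)
    have := hlt _ c1
    linarith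

lemma Γ_nonempty [CompleteSpace X] [TopologicalSpace.SeparableSpace X] (hX : Refl X)
    (hV : ∀ w h, V w h ⊆ T.B w h)
    (hne : ∀ w h, 0 < h → T.τ w + h < T.d → (V w h).Nonempty) {w : W} {t : ℝ} (h0 : 0 < t)
    (h1 : T.τ w + t < T.d) : (T.Γ V w t).Nonempty := by
  have := hX.separable_dual
  have hm : ∀ {θ θ' : ℝ} {N N' : ℕ}, θ' ≤ θ → N ≤ N' →
      closure[wk X] (T.Tot V w t θ' N') ⊆ closure[wk X] (T.Tot V w t θ N) := fun hθ hN =>
    @closure_mono X (wk X) _ _ fun _ ⟨w', h1, h2, h3⟩ =>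
      ⟨w', h1.mono hN fun _ _ => subset_rfl, h2, h3.trans hθ⟩
  have : Nonempty (Ioi (0 : ℝ) × ℕ) := ⟨⟨⟨1, by simp⟩, 0⟩⟩
  obtain ⟨v, hv⟩ := hX.nonempty_iInter (fun i : Ioi (0 : ℝ) × ℕ => closure[wk X]
    (T.Tot V w t i.1 i.2))
    (fun i j => ⟨(min i.1 j.1, max i.2 j.2), hm (min_le_left i.1 j.1) (le_max_left _ _),
      hm (min_le_right i.1 j.1) (le_max_right _ _)⟩)
    (fun i => (Tot_nonempty hV hne h0 h1 i.1.2 i.2).mono (@subset_closure X (wk X) _))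
    (fun N => @isClosed_closure X (wk X) _) (r := t) fun N x hx => by
      have := wcl_subset (convex_closedBall (0 : X) t) Metric.isClosed_closedBall ?_ hx
      · simpa using this
      rintro _ ⟨w', h1, h2, -⟩
      have := h1.norm_le hV
      rw [mem_closedBall_zero_iff]
      linarith
  exact ⟨v, ⟨h0, h1⟩, fun θ hθ N => mem_iInter.1 hv (⟨θ, hθ⟩, N)⟩

theorem exists_fixed [CompleteSpace X] [TopologicalSpace.SeparableSpace X] (hX : Refl X)
    (T : Tree X W) : ∃ V : W → ℝ → Set X, (∀ w h, V w h ⊆ T.B w h) ∧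
      (∀ w h, 0 < h → T.τ w + h < T.d → (V w h).Nonempty) ∧ ∀ w h, V w h ⊆ T.Γ V w h := by
  let sec : Set (W × ℝ × X) → W → ℝ → Set X := fun A w h => {v | (w, h, v) ∈ A}
  let S : Set (Set (W × ℝ × X)) := {A | (∀ w h, IsClosed[wk X] (sec A w h)) ∧
    (∀ w h, sec A w h ⊆ T.B w h) ∧ (∀ w h, 0 < h → T.τ w + h < T.d → (sec A w h).Nonempty) ∧
    ∀ w h, T.Γ (sec A) w h ⊆ sec A w h}
  obtain ⟨A, -, hA⟩ := zorn_superset_nonempty (S := S) (fun c hc hch hne => by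
      have e : ∀ w h, sec (⋂₀ c) w h = ⋂ A : c, sec A w h := fun w h => by
        ext v; simp [sec]
      have := hne.to_subtype
      refine ⟨⋂₀ c, ⟨fun w h => ?_, fun w h v hv => ?_, fun w h h0 h1 => ?_, fun w h v hv => ?_⟩,
        fun A hA => sInter_subset_of_mem hA⟩
      · rw [e]
        exact @isClosed_iInter X c (wk X) _ fun A => (hc A.2).1 w h
      · obtain ⟨A, hA⟩ := hne
        exact (hc hA).2.1 w h (hv A hA)
      · rw [e]
        refine hX.nonempty_iInter _ (fun A A' => ?_) (fun A => (hc A.2).2.2.1 w h h0 h1)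
          (fun A => (hc A.2).1 w h) (r := h) fun A x hx => norm_le_of_B ((hc A.2).2.1 w h hx)
        rcases hch.total A.2 A'.2 with h | h
        · exact ⟨A, subset_rfl, fun v hv => h hv⟩
        · exact ⟨A', fun v hv => h hv, subset_rfl⟩
      · intro A hA
        exact (hc hA).2.2.2 w h (Γ_mono (V := sec (⋂₀ c)) (V' := sec A) (fun w h v hv => hv A hA) w h hv))
    {p : W × ℝ × X | p.2.2 ∈ T.B p.1 p.2.1} ⟨isClosed_B, fun _ _ => subset_rfl,
      fun _ _ h0 h1 => B_nonempty hX h0 h1, Γ_subset_B _⟩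
  obtain ⟨h1, h2, h3, h4⟩ := hA.prop
  have := hA.le_of_le (y := {p : W × ℝ × X | p.2.2 ∈ T.Γ (sec A) p.1 p.2.1})
    ⟨isClosed_Γ _, Γ_subset_B _, fun _ _ h0 h1 => Γ_nonempty hX h2 h3 h0 h1, Γ_mono h4⟩
    fun p hp => h4 _ _ hp
  exact ⟨sec A, h2, h3, fun w h v hv => this hv⟩

theorem false_of_refl [CompleteSpace X] [TopologicalSpace.SeparableSpace X] (hX : Refl X)
    (T : Tree X W) : False := by
  obtain ⟨V, h1, h2, h3⟩ := exists_fixed hX T
  obtain ⟨g, ρ, x₀, M, hρ, hM, hs⟩ := hX.exists_slice {u | ∃ w h, h • u ∈ V w h}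
    (by
      obtain ⟨w, hw⟩ := T.root
      obtain ⟨v, hv⟩ := h2 w ((T.d - T.τ w) / 2) (by linarith) (by linarith)
      exact ⟨((T.d - T.τ w) / 2)⁻¹ • v, w, _, by
        rwa [smul_inv_smul₀ (by linarith : 0 < (T.d - T.τ w) / 2).ne']⟩)
    (by
      rintro u ⟨w, h, hu⟩
      have a1 := norm_le_of_B (h1 _ _ hu)
      have a2 := (h1 _ _ hu).1.1
      rw [norm_smul, Real.norm_of_nonneg a2.le] at a1
      exact (mul_le_iff_le_one_right a2).1 a1)
    (show (0 : ℝ) < 1 / 8 by norm_num)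
  have hs1 : ∀ w h, ∀ v ∈ V w h, ∀ ξ : StrongDual ℝ X, ‖ξ‖ ≤ 1 →
      ρ * (ξ v - h * ξ x₀) ≤ ρ * (1 / 8) * h + (M * h - g v) := fun w h v hv ξ hξ => by
    have a2 := (h1 _ _ hv).1.1
    have := mul_le_mul_of_nonneg_left (hs (h⁻¹ • v) ⟨w, h, by rwa [smul_inv_smul₀ a2.ne']⟩ ξ hξ) a2.le
    simp only [map_smul, smul_eq_mul] at this
    have e1 : h * (ρ * (h⁻¹ * ξ v - ξ x₀)) = ρ * (ξ v - h * ξ x₀) := by field_simp
    have e2 : h * (ρ * (1 / 8) + (M - h⁻¹ * g v)) = ρ * (1 / 8) * h + (M * h - g v) := by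
      field_simp
    rwa [e1, e2] at this
  have hs2 : ∀ {N w w' p}, T.Play V N w w' p → ∀ ξ : StrongDual ℝ X, ‖ξ‖ ≤ 1 →
      ρ * (ξ p - (T.τ w' - T.τ w) * ξ x₀) ≤ ρ * (1 / 8) * (T.τ w' - T.τ w) +
        (M * (T.τ w' - T.τ w) - g p) := fun {N w w' p} hp ξ hξ => by
    induction hp with
    | single _ hv => exact hs1 _ _ _ hv ξ hξ
    | snoc _ _ hv ih =>
      have := hs1 _ _ _ hv ξ hξ
      simp only [map_add]
      linarith
  obtain ⟨u, ⟨w, t, hu⟩, hgu⟩ := hM (ρ / 8) (by positivity)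
  have ht := (h1 _ _ hu).1.1
  have hK : T.s w + t • u ∈ T.K := by
    have := wcl_subset (C := (fun x => T.s w + x) ⁻¹' T.K) (T.conv.translate_preimage_right _)
      (T.closed.preimage (by fun_prop)) ?_ ((h1 _ _ hu).2 0)
    · exact this
    rintro _ ⟨w', -, -, rfl⟩
    simpa using T.mem w'
  obtain ⟨N, hN⟩ := T.low w _ hK (t / 8) (by positivity)
  obtain ⟨p, ⟨w', a1, a2, a3⟩, a4⟩ := wcl_approx ((h3 _ _ hu).2 (t / 8) (by positivity) N) {g}
    (show 0 < ρ * t / 8 by positivity)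
  have a5 := hN w' a1.desc
  obtain ⟨ξ, hξ, hξ'⟩ := exists_dual_vector'' ℝ (p - t • u)
  have b1 := hs2 a1 ξ hξ
  have b2 := hs1 _ _ _ hu (-ξ) (by simpa using hξ)
  have b3 := (abs_le.1 (a4 g (Finset.mem_singleton_self _))).1
  have b4 : ‖T.s w' - (T.s w + t • u)‖ ≤ t / 8 + ‖p - t • u‖ := by
    have : T.s w' - (T.s w + t • u) = (T.s w' - T.s w - p) + (p - t • u) := by abel
    rw [this]
    exact (norm_add_le _ _).trans (by linarith)
  simp only [RCLike.ofReal_real_eq_id, id, map_sub] at hξ'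
  rw [a2, add_sub_cancel_left] at b1 a5
  simp only [neg_apply, map_smul, smul_eq_mul] at b2 b3 hξ'
  have b5 : (M - ρ / 8) * t ≤ g u * t := mul_le_mul_of_nonneg_right hgu ht.le
  have b6 : ρ * ‖p - t • u‖ ≤ ρ * (5 / 8 * t) := by rw [← hξ']; nlinarith
  have := le_of_mul_le_mul_left b6 hρ
  linarith

end Tree

end Crest.Agent.R108
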