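import Mathlib

/-! Row 108: weak limits in reflexive spaces, small slices and a smooth potential. -/

set_option autoImplicit false
open Filter Topology Set

namespace Crest.Agent.R108

variable {X : Type*} [NormedAddCommGroup X] [NormedSpace ℝ X]

lemma exists_ulim {α : Type*} (U : Ultrafilter α) (a : α → ℝ) (r : ℝ) (h : ∀ i, |a i| ≤ r) :
    ∃ c, Tendsto a U (𝓝 c) := by
  obtain ⟨c, -, hc⟩ := (isCompact_Icc (a := -r) (b := r)).ultrafilter_le_nhds (U.map a)
    (by
      rw [le_principal_iff, Ultrafilter.coe_map, mem_map]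
      exact Eventually.of_forall fun i => abs_le.1 (h i))
  exact ⟨c, hc⟩

/-- weak-star limits along ultrafilters -/
lemma exists_wstar {α : Type*} (U : Ultrafilter α) (f : α → StrongDual ℝ X) (r : ℝ)
    (h : ∀ i, ‖f i‖ ≤ r) : ∃ g : StrongDual ℝ X, ∀ x, Tendsto (fun i => f i x) U (𝓝 (g x)) := by
  have hb : ∀ x i, |f i x| ≤ r * ‖x‖ := fun x i =>
    ((f i).le_opNorm x).trans (mul_le_mul_of_nonneg_right (h i) (norm_nonneg _))
  choose g hg using fun x => exists_ulim U (fun i => f i x) _ (hb x)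
  let L : X →ₗ[ℝ] ℝ :=
    { toFun := g
      map_add' := fun x y => tendsto_nhds_unique (hg (x + y))
        (by simpa only [map_add] using (hg x).add (hg y))
      map_smul' := fun c x => tendsto_nhds_unique (hg (c • x))
        (by simpa only [map_smul, RingHom.id_apply] using (hg x).const_smul c) }
  exact ⟨L.mkContinuous r fun x => le_of_tendsto' (hg x).norm (hb x), hg⟩

lemma norm_le_of_wstar {α : Type*} {l : Filter α} [l.NeBot] {f : α → StrongDual ℝ X}
    {g : StrongDual ℝ X} (hg : ∀ x, Tendsto (fun i => f i x) l (𝓝 (g x))) {a : α → ℝ} {r : ℝ}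
    (ha : Tendsto a l (𝓝 r)) (h : ∀ i, ‖f i‖ ≤ a i) : ‖g‖ ≤ r := by
  refine g.opNorm_le_bound (ge_of_tendsto' ha fun i => (norm_nonneg _).trans (h i)) fun x => ?_
  exact le_of_tendsto_of_tendsto' (hg x).norm (ha.mul_const _) fun i =>
    ((f i).le_opNorm x).trans (mul_le_mul_of_nonneg_right (h i) (norm_nonneg _))

variable (X) in
/-- reflexivity -/
def Refl : Prop := Function.Surjective (NormedSpace.inclusionInDoubleDual ℝ X)

/-- weak convergence -/
def WLim {α : Type*} (l : Filter α) (x : α → X) (z : X) : Prop :=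
  ∀ f : StrongDual ℝ X, Tendsto (fun i => f (x i)) l (𝓝 (f z))

lemma Refl.exists_wlim (hX : Refl X) {α : Type*} (U : Ultrafilter α) (x : α → X) (r : ℝ)
    (h : ∀ i, ‖x i‖ ≤ r) : ∃ z, WLim U x z := by
  obtain ⟨g, hg⟩ := exists_wstar U (fun i => NormedSpace.inclusionInDoubleDual ℝ X (x i)) r
    fun i => (NormedSpace.double_dual_bound ℝ X (x i)).trans (h i)
  obtain ⟨z, rfl⟩ := hX g
  exact ⟨z, hg⟩

lemma WLim.mem {α : Type*} {l : Filter α} [l.NeBot] {x : α → X} {z : X} (h : WLim l x z)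
    {C : Set X} (hC : Convex ℝ C) (hC' : IsClosed C) (hx : ∀ᶠ i in l, x i ∈ C) : z ∈ C := by
  by_contra hz
  obtain ⟨f, u, h1, h2⟩ := geometric_hahn_banach_closed_point hC hC' hz
  exact absurd (le_of_tendsto (h f) (hx.mono fun i hi => (h1 _ hi).le)) (not_le.2 h2)

lemma WLim.norm_sub_le {α : Type*} {l : Filter α} [l.NeBot] {x : α → X} {z : X} (h : WLim l x z)
    (c : X) {a : α → ℝ} {r : ℝ} (ha : Tendsto a l (𝓝 r)) (hx : ∀ i, ‖x i - c‖ ≤ a i) :
    ‖z - c‖ ≤ r := by
  refine le_of_forall_pos_le_add fun ε hε => ?_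
  have := h.mem (convex_closedBall c (r + ε)) Metric.isClosed_closedBall
    ((ha.eventually (ge_mem_nhds (lt_add_of_pos_right r hε))).mono fun i hi => by
      rw [mem_closedBall_iff_norm]; exact (hx i).trans hi)
  rwa [mem_closedBall_iff_norm] at this

lemma WLim.sub {α : Type*} {l : Filter α} {x y : α → X} {z w : X} (h : WLim l x z)
    (h' : WLim l y w) : WLim l (fun i => x i - y i) (z - w) := fun f => by
  simpa only [map_sub] using (h f).sub (h' f)

variable (X) in
/-- the weak topology -/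
@[reducible] def wk : TopologicalSpace X :=
  TopologicalSpace.induced (fun x (f : StrongDual ℝ X) => f x) inferInstance

lemma le_nhds_wk {l : Filter X} {z : X} : l ≤ @nhds X (wk X) z ↔ WLim l id z := by
  rw [nhds_induced, ← tendsto_iff_comap, tendsto_pi_nhds]
  rfl

lemma mem_wcl {S : Set X} {z : X} :
    z ∈ closure[wk X] S ↔ ∃ U : Ultrafilter X, S ∈ U ∧ WLim U id z := by
  let _ := wk X
  rw [mem_closure_iff_ultrafilter]
  simp only [le_nhds_wk]

lemma wcl_subset {S C : Set X} (hC : Convex ℝ C) (hC' : IsClosed C) (h : S ⊆ C) :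
    closure[wk X] S ⊆ C := fun z hz => by
  obtain ⟨U, hU, hz⟩ := mem_wcl.1 hz
  exact hz.mem hC hC' (mem_of_superset hU h)

lemma isClosed_wk {C : Set X} (hC : Convex ℝ C) (hC' : IsClosed C) : IsClosed[wk X] C :=
  (@closure_subset_iff_isClosed X (wk X) _).1 (wcl_subset hC hC' subset_rfl)

lemma wcl_approx {S : Set X} {z : X} (hz : z ∈ closure[wk X] S) (F : Finset (StrongDual ℝ X))
    {ε : ℝ} (hε : 0 < ε) : ∃ x ∈ S, ∀ f ∈ F, |f x - f z| ≤ ε := by
  obtain ⟨U, hU, hz⟩ := mem_wcl.1 hz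
  have : ∀ᶠ x in (U : Filter X), ∀ f ∈ F, |f x - f z| ≤ ε := by
    rw [Finset.eventually_all]
    intro f _
    exact ((Metric.tendsto_nhds.1 (hz f)) ε hε).mono fun x hx => le_of_lt hx
  exact ((show ∀ᶠ x in (U : Filter X), x ∈ S from hU).and this).exists

lemma Refl.isCompact_wk (hX : Refl X) {S : Set X} (hS : IsClosed[wk X] S) {r : ℝ}
    (h : ∀ x ∈ S, ‖x‖ ≤ r) : @IsCompact X (wk X) S := by
  classical
  rw [@isCompact_iff_ultrafilter_le_nhds X (wk X)]
  intro U hU
  rw [le_principal_iff] at hU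
  obtain ⟨z, hz⟩ := hX.exists_wlim U (fun x => if x ∈ S then x else 0) (max r 0) fun x => by
    split_ifs with hx
    · exact (h x hx).trans (le_max_left _ _)
    · simp
  have hz' : WLim U id z := fun f => (hz f).congr' (by
    filter_upwards [hU] with x hx
    simp [hx])
  exact ⟨z, (@IsClosed.closure_eq X (wk X) _ hS) ▸ mem_wcl.2 ⟨U, hU, hz'⟩, le_nhds_wk.2 hz'⟩

/-- directed families of nonempty bounded weakly closed sets intersect -/
lemma Refl.nonempty_iInter (hX : Refl X) {ι : Type*} [Nonempty ι] (S : ι → Set X)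
    (hd : Directed (· ⊇ ·) S) (hne : ∀ i, (S i).Nonempty) (hc : ∀ i, IsClosed[wk X] (S i)) {r : ℝ}
    (h : ∀ i, ∀ x ∈ S i, ‖x‖ ≤ r) : (⋂ i, S i).Nonempty :=
  @IsCompact.nonempty_iInter_of_directed_nonempty_isCompact_isClosed X (wk X) ι _ S hd hne
    (fun i => hX.isCompact_wk (hc i) (h i)) hc

/-- Small slices, in a form that is affine in the point. -/
theorem Refl.exists_slice [TopologicalSpace.SeparableSpace X] (hX : Refl X) (U : Set X)
    (hne : U.Nonempty) (hb : ∀ u ∈ U, ‖u‖ ≤ 1) {θ : ℝ} (hθ : 0 < θ) :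
    ∃ (g : StrongDual ℝ X) (ρ : ℝ) (x₀ : X) (M : ℝ), 0 < ρ ∧ (∀ ε > 0, ∃ u ∈ U, M - ε ≤ g u) ∧
      ∀ u ∈ U, ∀ ξ : StrongDual ℝ X, ‖ξ‖ ≤ 1 → ρ * (ξ u - ξ x₀) ≤ ρ * θ + (M - g u) := by
  set U' := closure[wk X] U with hU'
  have hb' : ∀ u ∈ U', ‖u‖ ≤ 1 := fun u hu => by
    simpa using wcl_subset (convex_closedBall (0 : X) 1) Metric.isClosed_closedBall
      (fun u hu => by simpa using hb u hu) hu
  have hsub : U ⊆ U' := @subset_closure X (wk X) _
  have hK := hX.isCompact_wk (@isClosed_closure X (wk X) U) hb'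
  have hab : ∀ (f : StrongDual ℝ X) (u : X), ‖u‖ ≤ 1 → |f u| ≤ ‖f‖ := fun f u hu =>
    (f.le_opNorm u).trans (mul_le_of_le_one_right (norm_nonneg _) hu)
  let x := TopologicalSpace.denseSeq X
  let Z : ℕ → Set (StrongDual ℝ X) := fun j =>
    {g | ∀ u ∈ U, ∀ c, (∀ u' ∈ U', ‖u' - x j‖ ≤ θ → g u' ≤ c) → g u ≤ c}
  have hZ : ∀ j, IsClosed (Z j) := fun j => by
    refine isClosed_of_closure_subset fun g hg u hu c hc => le_of_forall_pos_le_add fun ε hε => ?_
    obtain ⟨g', hg', hd⟩ := Metric.mem_closure_iff.1 hg (ε / 2) (half_pos hε)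
    rw [dist_eq_norm] at hd
    have h1 := hg' u hu (c + ε / 2) fun u' hu' h => by
      have := abs_le.1 (hab (g - g') u' (hb' u' hu'))
      have := hc u' hu' h
      simp only [sub_apply] at *
      linarith
    have := abs_le.1 (hab (g - g') u (hb u hu))
    simp only [sub_apply] at *
    linarith
  have hcov : ⋃ j, Z j = univ := by
    refine eq_univ_of_forall fun g => ?_
    have hg : Continuous[wk X, _] g :=
      @Continuous.comp X _ _ (wk X) _ _ (fun x (f : StrongDual ℝ X) => f x) (fun φ => φ g)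
        (continuous_apply g) continuous_induced_dom
    obtain ⟨u, hu, hmax⟩ := @IsCompact.exists_isMaxOn _ _ _ _ (wk X) _ _ hK (hne.mono hsub) g
      (@Continuous.continuousOn _ _ (wk X) _ _ _ hg)
    obtain ⟨j, hj⟩ := (TopologicalSpace.denseRange_denseSeq X).exists_dist_lt u hθ
    refine mem_iUnion.2 ⟨j, fun u' hu' c hc => (hmax (hsub hu')).trans (hc u hu ?_)⟩
    rw [← dist_eq_norm]; exact hj.le
  obtain ⟨j, g, hg⟩ := nonempty_interior_of_iUnion_of_closed hZ hcov
  obtain ⟨ρ, hρ, hball⟩ := Metric.mem_nhds_iff.1 (mem_interior_iff_mem_nhds.1 hg)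
  have hbdd : BddAbove (g '' U) := ⟨‖g‖, by
    rintro _ ⟨u, hu, rfl⟩; exact (abs_le.1 (hab g u (hb u hu))).2⟩
  refine ⟨g, ρ / 2, x j, sSup (g '' U), half_pos hρ, fun ε hε => ?_, fun u hu ξ hξ => ?_⟩
  · obtain ⟨_, ⟨u, hu, rfl⟩, h⟩ := exists_lt_of_lt_csSup (hne.image g) (sub_lt_self _ hε)
    exact ⟨u, hu, h.le⟩
  · have h1 : g + (ρ / 2) • ξ ∈ Z j := hball (by
      rw [mem_ball_iff_norm, add_sub_cancel_left, norm_smul, Real.norm_of_nonneg (by positivity)]
      nlinarith)
    have h2 := h1 u hu (sSup (g '' U) + ρ / 2 * (ξ (x j) + θ)) fun u' hu' h => by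
      have a1 : g u' ≤ sSup (g '' U) :=
        wcl_subset (C := {u | g u ≤ sSup (g '' U)}) (convex_halfSpace_le g.toLinearMap.isLinear _)
          (isClosed_le g.continuous continuous_const) (fun u hu => le_csSup hbdd ⟨u, hu, rfl⟩) hu'
      have a2 : ξ (u' - x j) ≤ θ := (le_abs_self _).trans ((ξ.le_opNorm _).trans (by
        nlinarith [norm_nonneg (u' - x j)]))
      simp only [add_apply, smul_apply, smul_eq_mul, map_sub] at *
      nlinarith
    simp only [add_apply, smul_apply, smul_eq_mul] at h2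
    linarith

theorem Refl.separable_dual [TopologicalSpace.SeparableSpace X] (hX : Refl X) :
    TopologicalSpace.SeparableSpace (StrongDual ℝ X) := by
  let x := TopologicalSpace.denseSeq X
  choose f hf hf' using fun n => exists_dual_vector'' ℝ (x n)
  have h1 : TopologicalSpace.IsSeparable
      ((Submodule.span ℝ (range f)).topologicalClosure : Set (StrongDual ℝ X)) :=
    ((countable_range f).isSeparable.span).closure
  rw [← TopologicalSpace.isSeparable_univ_iff]
  refine h1.mono fun g _ => ?_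
  by_contra hg
  obtain ⟨L, u, h2, h3⟩ := geometric_hahn_banach_closed_point
    (Submodule.span ℝ (range f)).topologicalClosure.convex
    (Submodule.isClosed_topologicalClosure _) hg
  obtain ⟨z, rfl⟩ := hX L
  have h4 : ∀ n, f n z = 0 := fun n => by
    by_contra h0
    have := h2 ((u / f n z) • f n) (Submodule.smul_mem _ _
      (Submodule.le_topologicalClosure _ (Submodule.subset_span ⟨n, rfl⟩)))
    simp [NormedSpace.dual_def, div_mul_cancel₀ _ h0] at this
  have h5 : z = 0 := by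
    rw [← norm_le_zero_iff]
    refine le_of_forall_pos_le_add fun ε hε => ?_
    obtain ⟨n, hn⟩ := (TopologicalSpace.denseRange_denseSeq X).exists_dist_lt z (half_pos hε)
    rw [dist_eq_norm] at hn
    have a1 : f n (x n - z) ≤ ‖z - x n‖ := (le_abs_self _).trans (((f n).le_opNorm _).trans (by
      rw [norm_sub_rev]; exact mul_le_of_le_one_left (norm_nonneg _) (hf n)))
    rw [map_sub, h4, hf', sub_zero] at a1
    have a2 := norm_sub_norm_le z (x n)
    simp only [RCLike.ofReal_real_eq_id, id] at a1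
    linarith
  have := h2 0 (zero_mem _)
  simp [h5] at this h3
  linarith

/-- A potential that is smooth in weakly null directions, locally uniformly. -/
theorem exists_potential [TopologicalSpace.SeparableSpace (StrongDual ℝ X)] {θ : ℝ} (hθ : 0 < θ) :
    ∃ φ : X → ℝ, φ 0 ≤ 0 ∧ (∀ x, ‖x‖ ≤ φ x + θ) ∧ ∀ x₀, ∀ η > 0, ∃ γ > 0,
      ∃ F : Finset (StrongDual ℝ X), ∀ x, ‖x - x₀‖ ≤ γ → ∀ (D : X) (h : ℝ), ‖D‖ ≤ h → h ≤ γ →
        (∀ f ∈ F, |f D| ≤ η * h) → φ (x + D) ≤ φ x + 2 * η * h := by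
  classical
  let e := TopologicalSpace.denseSeq (StrongDual ℝ X)
  let c : ℕ → ℝ := fun j => θ / 2 / 2 ^ j / (1 + ‖e j‖)
  have hc : ∀ j, 0 < c j := fun j => by positivity
  have hce : ∀ f : StrongDual ℝ X, ‖f‖ ≤ 1 → ∀ j, c j * ‖f - e j‖ ≤ θ / 2 / 2 ^ j := fun f hf j => by
    rw [div_mul_eq_mul_div, div_le_iff₀ (by positivity)]
    gcongr
    exact (norm_sub_le _ _).trans (by linarith)
  have hsum : ∀ f : StrongDual ℝ X, ‖f‖ ≤ 1 → Summable fun j => c j * ‖f - e j‖ := fun f hf =>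
    (summable_geometric_two' θ).of_nonneg_of_le (fun j => by have := hc j; positivity) (hce f hf)
  let Ω : StrongDual ℝ X → ℝ := fun f => ∑' j, c j * ‖f - e j‖
  have hΩ0 : ∀ f, 0 ≤ Ω f := fun f => tsum_nonneg fun j => by have := hc j; positivity
  have hΩ1 : ∀ f, ‖f‖ ≤ 1 → Ω f ≤ θ := fun f hf =>
    ((hsum f hf).tsum_le_tsum (hce f hf) (summable_geometric_two' θ)).trans
      (tsum_geometric_two' θ).le
  have hab : ∀ (f : StrongDual ℝ X) (u : X), ‖f‖ ≤ 1 → f u ≤ ‖u‖ := fun f u hf =>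
    (le_abs_self _).trans ((f.le_opNorm u).trans (mul_le_of_le_one_left (norm_nonneg _) hf))
  let φ : X → ℝ := fun x => sSup ((fun f => f x - Ω f) '' {f : StrongDual ℝ X | ‖f‖ ≤ 1})
  have hle : ∀ x (f : StrongDual ℝ X), ‖f‖ ≤ 1 → f x - Ω f ≤ φ x := fun x f hf =>
    le_csSup ⟨‖x‖, by
      rintro _ ⟨g, hg, rfl⟩
      have := hab g x hg
      have := hΩ0 g
      simp only
      linarith⟩ ⟨f, hf, rfl⟩
  have hge : ∀ x a, (∀ f : StrongDual ℝ X, ‖f‖ ≤ 1 → f x - Ω f ≤ a) → φ x ≤ a := fun x a h =>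
    csSup_le ⟨_, 0, by simp, rfl⟩ (by rintro _ ⟨g, hg, rfl⟩; exact h g hg)
  have hlip : ∀ x y, φ x ≤ φ y + ‖x - y‖ := fun x y => hge _ _ fun f hf => by
    have := hle y f hf
    have := hab f (x - y) hf
    rw [map_sub] at this
    linarith
  have key : ∀ x₀, ∀ η > 0, ∃ k : ℕ, ∀ f : StrongDual ℝ X, ‖f‖ ≤ 1 →
      φ x₀ - 1 / (k + 1) ≤ f x₀ - Ω f → ∃ j < k, ‖f - e j‖ ≤ η := by
    intro x₀ η hη
    by_contra! hn
    choose f hf1 hf2 hf3 using hn
    let U := hyperfilter ℕ
    have hU : (U : Filter ℕ) ≤ atTop := Nat.hyperfilter_le_atTop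
    obtain ⟨g, hg⟩ := exists_wstar U f 1 hf1
    have hg1 : ‖g‖ ≤ 1 := norm_le_of_wstar hg tendsto_const_nhds hf1
    choose a ha using fun j => exists_ulim U (fun k => ‖f k - e j‖) (1 + ‖e j‖) fun k => by
      rw [abs_norm]; exact (norm_sub_le _ _).trans (by linarith [hf1 k])
    have ha1 : ∀ j, ‖g - e j‖ ≤ a j := fun j =>
      norm_le_of_wstar (f := fun k => f k - e j) (fun x => (hg x).sub_const _) (ha j) fun _ => le_rfl
    obtain ⟨j, hj⟩ := (TopologicalSpace.denseRange_denseSeq (StrongDual ℝ X)).exists_dist_lt g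
      (half_pos hη)
    rw [dist_eq_norm] at hj
    have ha2 : η ≤ a j := ge_of_tendsto (ha j)
      (((eventually_gt_atTop j).filter_mono hU).mono fun k hk => (hf3 k j hk).le)
    have h1 : ∀ S : Finset ℕ, ∑ i ∈ S, c i * a i ≤ g x₀ - φ x₀ := fun S => by
      have t1 : Tendsto (fun k : ℕ => f k x₀ - φ x₀ + 1 / ((k : ℝ) + 1)) U
          (𝓝 (g x₀ - φ x₀ + 0)) :=
        ((hg x₀).sub_const _).add (tendsto_one_div_add_atTop_nhds_zero_nat.mono_left hU)
      rw [add_zero] at t1
      refine le_of_tendsto_of_tendsto' (tendsto_finsetSum S fun i _ => (ha i).const_mul (c i)) t1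
        fun k => ?_
      have := (hsum _ (hf1 k)).sum_le_tsum S fun i _ => by have := hc i; positivity
      have := hf2 k
      simp only [Ω] at *
      linarith
    have h2 : Ω g ≤ g x₀ - φ x₀ - c j * (η / 2) := by
      refine (hsum g hg1).tsum_le_of_sum_le fun S => ?_
      have b1 := h1 (insert j S)
      have b2 : ∑ i ∈ S, c i * ‖g - e i‖ ≤ ∑ i ∈ insert j S, c i * ‖g - e i‖ :=
        Finset.sum_le_sum_of_subset_of_nonneg (Finset.subset_insert _ _) fun i _ _ => by
          have := hc i; positivity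
      have b3 : c j * (a j - ‖g - e j‖) ≤ ∑ i ∈ insert j S, c i * (a i - ‖g - e i‖) :=
        Finset.single_le_sum (f := fun i => c i * (a i - ‖g - e i‖))
          (fun i _ => mul_nonneg (hc i).le (sub_nonneg.2 (ha1 i))) (Finset.mem_insert_self _ _)
      simp only [mul_sub, Finset.sum_sub_distrib] at b3
      have b4 : c j * (η / 2) ≤ c j * (a j - ‖g - e j‖) :=
        mul_le_mul_of_nonneg_left (by linarith) (hc j).le
      rw [mul_sub] at b4
      linarith
    have := hle x₀ g hg1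
    have := mul_pos (hc j) (half_pos hη)
    linarith
  refine ⟨φ, hge _ _ fun f _ => by simpa using hΩ0 f, fun x => ?_, fun x₀ η hη => ?_⟩
  · obtain ⟨f, hf, hf'⟩ := exists_dual_vector'' ℝ x
    have := hle x f hf
    have := hΩ1 f hf
    simp only [RCLike.ofReal_real_eq_id, id] at hf'
    linarith
  obtain ⟨k, hk⟩ := key x₀ η hη
  refine ⟨1 / (k + 1) / 4, by positivity, (Finset.range k).image e, fun x hx D h hD hh hF =>
    hge _ _ fun f hf => ?_⟩
  have h0 : 0 ≤ h := (norm_nonneg _).trans hD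
  by_cases hm : φ x₀ - 1 / (k + 1) ≤ f x₀ - Ω f
  · obtain ⟨j, hj, hj'⟩ := hk f hf hm
    have a1 := (abs_le.1 (hF (e j) (Finset.mem_image_of_mem _ (Finset.mem_range.2 hj)))).2
    have a2 : (f - e j) D ≤ η * h := (le_abs_self _).trans (((f - e j).le_opNorm D).trans
      (mul_le_mul hj' hD (norm_nonneg _) hη.le))
    have := hle x f hf
    simp only [sub_apply, map_add] at *
    linarith
  · have a1 := hab f (x - x₀) hf
    have a2 := hab f D hf
    have a3 := hlip x₀ x
    rw [norm_sub_rev] at a3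
    have : 0 ≤ η * h := by positivity
    have : (0 : ℝ) < 1 / (k + 1) := by positivity
    simp only [map_sub, map_add] at *
    linarith

end Crest.Agent.R108
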